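import Crest.Agent.R177.Levels.EVW

set_option autoImplicit false

namespace Crest.Agent.R177.LevelsAux

open Equiv Finset

variable {V E T : Type} {Γ : LG V E T} {z : V} {K B L0 M : ℕ} (c : Config Γ z K B L0 M)

open Classical in
/-- passes through a connector -/
noncomputable def passes : Finset (Fin K × ℕ) :=
  (darts c.len).filter (fun x => x.2 + 1 < c.len x.1 ∧ c.pat.o x = true)

/-- the pairing is affine at `x` -/
def Aff (x : Fin K × ℕ) : Prop :=
  ∃ p' i', c.pr x = some (p', i' + 1) ∧ c.pr (x.1, x.2 + 1) = some (p', i')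

open Classical in
/-- good passes -/
noncomputable def good : Finset (Fin K × ℕ) := (passes c).filter (fun x => Aff c x)

/-- the partner of a good pass -/
def partner (x : Fin K × ℕ) : Fin K × ℕ := (c.pr (x.1, x.2 + 1)).getD x

theorem total_le_passes : c.total ≤ 2 * (passes c).card + 2 * K := by
  classical
  have h : darts c.len ⊆ (passes c ∪ (passes c).image (fun x => (x.1, x.2 + 1))) ∪
      (univ.image (fun p : Fin K => (p, 0)) ∪ univ.image (fun p => (p, c.len p - 1))) := by
    rintro ⟨p, i⟩ hx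
    have hx' := (mem_darts _ _).1 hx
    simp only at hx'
    by_cases ho : c.pat.o (p, i) = true
    · by_cases h : i + 1 < c.len p
      · exact mem_union_left _ (mem_union_left _ (mem_filter.2 ⟨hx, h, ho⟩))
      · refine mem_union_right _ (mem_union_right _ (mem_image.2 ⟨p, mem_univ _, ?_⟩))
        refine Prod.ext rfl ?_
        simp only; omega
    · rcases i with _ | k
      · exact mem_union_right _ (mem_union_left _ (mem_image.2 ⟨p, mem_univ _, rfl⟩))
      · refine mem_union_left _ (mem_union_right _ (mem_image.2 ⟨(p, k), ?_, rfl⟩))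
        refine mem_filter.2 ⟨(mem_darts _ _).2 (by simp only; omega), hx', ?_⟩
        rw [o_succ] at ho
        simpa using ho
  have h1 := (card_le_card h).trans (card_union_le _ _)
  have h2 := card_union_le (passes c) ((passes c).image (fun x => (x.1, x.2 + 1)))
  have h3 := card_union_le (univ.image (fun p : Fin K => (p, 0)))
    (univ.image (fun p => (p, c.len p - 1)))
  have h6 : (univ.image (fun p => (p, c.len p - 1))).card ≤ K :=
    card_image_le.trans (by simp)
  have h7 : (univ.image (fun p : Fin K => (p, 0))).card ≤ K :=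
    card_image_le.trans (by simp)
  have h8 : ((passes c).image (fun x => (x.1, x.2 + 1))).card ≤ (passes c).card := card_image_le
  rw [card_darts_total] at h1
  omega

theorem passes_le_good : (passes c).card ≤ (good c).card + c.unp + B := by
  classical
  have h : passes c ⊆ (good c ∪ (darts c.len).filter (fun x => c.pr x = none)) ∪
      (darts c.len).filter (fun x => x.2 + 1 < c.len x.1 ∧ ¬ Smooth c.pr x) := by
    intro x hx
    obtain ⟨hx1, hx2, hx3⟩ := mem_filter.1 hx
    by_cases hs : Smooth c.pr x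
    · rcases hs with hs | hs
      · exact mem_union_left _ (mem_union_right _ (mem_filter.2 ⟨hx1, hs.1⟩))
      · exact mem_union_left _ (mem_union_left _ (mem_filter.2 ⟨hx, hs⟩))
    · exact mem_union_right _ (mem_filter.2 ⟨hx1, hx2, hs⟩)
  have h1 := (card_le_card h).trans (card_union_le _ _)
  have h2 := card_union_le (good c) ((darts c.len).filter (fun x => c.pr x = none))
  have h3 := c.brk
  have h4 : c.unp = ((darts c.len).filter (fun x => c.pr x = none)).card := by
    unfold Config.unp; congr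
  have h5 : ((darts c.len).filter (fun x => x.2 + 1 < c.len x.1 ∧ ¬ Smooth c.pr x)).card ≤ B := by
    convert h3
  omega

theorem good_spec {x : Fin K × ℕ} (hx : x ∈ good c) :
    x.2 + 1 < c.len x.1 ∧ c.pat.o x = true ∧
      c.pr x = some ((partner c x).1, (partner c x).2 + 1) ∧
      c.pr (x.1, x.2 + 1) = some (partner c x) := by
  classical
  obtain ⟨hx1, p', i', h1, h2⟩ := mem_filter.1 hx
  obtain ⟨_, hx2, hx3⟩ := mem_filter.1 hx1
  have : partner c x = (p', i') := by simp [partner, h2]
  rw [this]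
  exact ⟨hx2, hx3, h1, h2⟩

theorem partner_good (hb : Γ.Bip) {x : Fin K × ℕ} (hx : x ∈ good c) :
    partner c x ∈ good c ∧ partner c (partner c x) = x := by
  classical
  obtain ⟨h1, h2, h3, h4⟩ := good_spec c hx
  have h5 := c.pr_symm _ _ h3
  have h6 := c.pr_symm _ _ h4
  have h7 := c.pr_dom _ _ h5
  simp only at h7
  have h8 : (partner c x).2 < c.len (partner c x).1 := by omega
  refine ⟨mem_filter.2 ⟨mem_filter.2 ⟨(mem_darts _ _).2 h8, h7, ?_⟩, x.1, x.2, h6, h5⟩, ?_⟩
  · rw [c.pat_o hb h8]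
    have h9 := c.pr_lab _ _ h4
    have h10 : (c.ed (partner c x)).2 = !(c.ed (x.1, x.2 + 1)).2 := congrArg Prod.snd h9
    have h11 : ((x.1, x.2 + 1) : Fin K × ℕ).2 < c.len ((x.1, x.2 + 1) : Fin K × ℕ).1 := h1
    rw [h10, ← c.pat_o hb h11, o_succ]
    simpa using h2
  · show (c.pr ((partner c x).1, (partner c x).2 + 1)).getD (partner c x) = x
    rw [h5]; rfl

theorem partner_tgt_ne (hb : Γ.Bip) (hi : Γ.Immersed) {x : Fin K × ℕ} (hx : x ∈ good c) :
    Γ.tgt (c.ed (partner c x)).1 ≠ Γ.tgt (c.ed x).1 := by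
  intro h
  obtain ⟨h1, h2, h3, h4⟩ := good_spec c hx
  obtain ⟨g1, g2, -, -⟩ := good_spec c (partner_good c hb hx).1
  have hx' : x.2 < c.len x.1 := by omega
  have hy' : (partner c x).2 < c.len (partner c x).1 := by omega
  rw [c.pat_o hb hx'] at h2
  rw [c.pat_o hb hy'] at g2
  apply c.pr_red _ _ h3
  apply hi
  · rw [← c.walk _ _ g1, LG.st_flp]
    show Γ.en (c.ed (partner c x)) = _
    simp only [LG.en, h2, g2, cond_true]
    exact h
  · rw [c.pr_lab _ _ h3, LG.lb_flp]

theorem mW_congr (hb : Γ.Bip) {x y : Fin K × ℕ} (hx : x.2 < c.len x.1) (hy : y.2 < c.len y.1)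
    (h : Γ.tgt (c.ed x).1 = Γ.tgt (c.ed y).1) : c.pat.mW x = c.pat.mW y := by
  unfold Pat.mW
  congr 1
  ext w
  simp only [mem_filter, Config.pat_len, mem_darts]
  refine and_congr_right fun hw => ?_
  rw [c.pat_sameW hb hx hw, c.pat_sameW hb hy hw, h]

theorem before_congr (hb : Γ.Bip) {x y w : Fin K × ℕ} (hx : x.2 < c.len x.1)
    (hy : y.2 < c.len y.1) (h : Γ.tgt (c.ed x).1 = Γ.tgt (c.ed y).1) (hw : c.pat.before w x) :
    c.pat.before w y := by
  unfold Pat.before at hw ⊢
  rw [← mW_congr c hb hx hy h]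
  rcases hw with hw | ⟨h1, y', hy', h2, h3⟩
  · exact Or.inl hw
  · refine Or.inr ⟨h1, y', hy', h2, fun x' hx' hs => h3 x' hx' ?_⟩
    have hx'' := (mem_darts _ _).1 hx'
    rw [c.pat_sameW hb hx hx'', h, ← c.pat_sameW hb hy hx'']
    exact hs

theorem before_total (hb : Γ.Bip) {x y : Fin K × ℕ} (hx : x.2 < c.len x.1)
    (hy : y.2 < c.len y.1) (h : Γ.tgt (c.ed x).1 ≠ Γ.tgt (c.ed y).1) :
    c.pat.before x y ∨ c.pat.before y x := by
  classical
  unfold Pat.before
  rcases lt_trichotomy (c.pat.mW x) (c.pat.mW y) with hl | he | hl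
  · exact Or.inr (Or.inl hl)
  · obtain ⟨x', hx', hxm⟩ := exists_lex_min
      ((darts c.len).filter (fun w => Γ.tgt (c.ed x).1 = Γ.tgt (c.ed w).1))
      ⟨x, mem_filter.2 ⟨(mem_darts _ _).2 hx, rfl⟩⟩
    obtain ⟨y', hy', hym⟩ := exists_lex_min
      ((darts c.len).filter (fun w => Γ.tgt (c.ed y).1 = Γ.tgt (c.ed w).1))
      ⟨y, mem_filter.2 ⟨(mem_darts _ _).2 hy, rfl⟩⟩
    obtain ⟨hx1, hx2⟩ := mem_filter.1 hx'
    obtain ⟨hy1, hy2⟩ := mem_filter.1 hy'
    have hne : toLex x' ≠ toLex y' := by
      intro hh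
      have : x' = y' := toLex.injective hh
      apply h
      rw [hx2, hy2, this]
    rcases lt_or_gt_of_ne hne with hlt | hlt
    · refine Or.inl (Or.inr ⟨he, x', hx1, (c.pat_sameW hb hx ((mem_darts _ _).1 hx1)).2 hx2, ?_⟩)
      intro w hw hs
      exact hlt.trans_le
        (hym w (mem_filter.2 ⟨hw, (c.pat_sameW hb hy ((mem_darts _ _).1 hw)).1 hs⟩))
    · refine Or.inr (Or.inr
        ⟨he.symm, y', hy1, (c.pat_sameW hb hy ((mem_darts _ _).1 hy1)).2 hy2, ?_⟩)
      intro w hw hs
      exact hlt.trans_le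
        (hxm w (mem_filter.2 ⟨hw, (c.pat_sameW hb hx ((mem_darts _ _).1 hw)).1 hs⟩))
  · exact Or.inl (Or.inl hl)

open Classical in
/-- good passes whose partner comes first -/
noncomputable def good1 : Finset (Fin K × ℕ) :=
  (good c).filter (fun x => c.pat.before (partner c x) x)

theorem good_le (hb : Γ.Bip) (hi : Γ.Immersed) : (good c).card ≤ 2 * (good1 c).card := by
  classical
  have h : good c ⊆ good1 c ∪ (good1 c).image (partner c) := by
    intro x hx
    obtain ⟨h1, h2⟩ := partner_good c hb hx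
    have hx' : x.2 < c.len x.1 := by have := (good_spec c hx).1; omega
    have hy' : (partner c x).2 < c.len (partner c x).1 := by have := (good_spec c h1).1; omega
    rcases before_total c hb hy' hx' (partner_tgt_ne c hb hi hx) with hbf | hbf
    · exact mem_union_left _ (mem_filter.2 ⟨hx, hbf⟩)
    · refine mem_union_right _ (mem_image.2 ⟨partner c x, mem_filter.2 ⟨h1, ?_⟩, h2⟩)
      rw [h2]; exact hbf
  have h1 := (card_le_card h).trans (card_union_le _ _)
  have h2 : ((good1 c).image (partner c)).card ≤ (good1 c).card := card_image_le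
  omega

theorem levels_free' (hb : Γ.Bip) (hi : Γ.Immersed) (hg : Γ.GirthGt 2) (μ : ℕ) :
    4 * ∑ j ∈ Finset.Icc 1 μ, c.pat.nFree j ≤ c.total + 2 * c.unp + 6 * K + 2 * B := by
  classical
  have h1 := sum_W_le c hb hg μ (fun x => ¬ c.pat.det x)
  rw [sum_vis] at h1
  set F := (visits c).filter (fun x => c.vtx x ∈
    ((darts c.len).filter (fun x => ¬ c.pat.det x)).image (fun x => Γ.tgt (c.ed x).1)) with hF
  have h0 : ∑ j ∈ Finset.Icc 1 μ, c.pat.nFree j ≤ F.card := by
    unfold Pat.nFree
    convert h1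
    rfl
  set G := (good1 c).image (fun x => ((x.1, x.2 + 1) : Fin K × ℕ)) with hG
  have hGc : G.card = (good1 c).card := by
    refine card_image_of_injective _ ?_
    intro x y h
    simp only [Prod.mk.injEq] at h
    exact Prod.ext h.1 (by omega)
  have hvt : ∀ x ∈ good c, c.vtx (x.1, x.2 + 1) = Γ.tgt (c.ed x).1 := by
    intro x hx
    obtain ⟨g1, g2, -, -⟩ := good_spec c hx
    have hx' : x.2 < c.len x.1 := by omega
    rw [c.pat_o hb hx'] at g2
    rw [c.vtx_en hx']
    simp only [LG.en, g2, cond_true]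
  have hd : Disjoint F G := by
    rw [disjoint_left]
    intro w hw hw'
    obtain ⟨x, hx, rfl⟩ := mem_image.1 hw'
    obtain ⟨hx1, hx2⟩ := mem_filter.1 hx
    obtain ⟨y, hy, hyx⟩ := mem_image.1 (mem_filter.1 hw).2
    obtain ⟨hy1, hy2⟩ := mem_filter.1 hy
    have hy3 := (mem_darts _ _).1 hy1
    rw [hvt x hx1] at hyx
    obtain ⟨g1, g2, g3, g4⟩ := good_spec c hx1
    have hx' : x.2 < c.len x.1 := by omega
    apply hy2
    exact ⟨x.1, x.2, (partner c x).1, (partner c x).2, g1, g2,
      (c.pat_sameW hb hy3 hx').2 hyx, g3, g4, before_congr c hb hx' hy3 hyx.symm hx2⟩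
  have hsub : F ∪ G ⊆ wpos c := by
    intro w hw
    rcases mem_union.1 hw with hw | hw
    · obtain ⟨hw1, hw2⟩ := mem_filter.1 hw
      obtain ⟨y, _, h⟩ := mem_image.1 hw2
      exact mem_wpos_of c hb (visits_subset c hw1) h.symm
    · obtain ⟨x, hx, rfl⟩ := mem_image.1 hw
      obtain ⟨hx1, _⟩ := mem_filter.1 hx
      have g1 := (good_spec c hx1).1
      refine mem_wpos_of c hb ?_ (hvt x hx1)
      rw [mem_verts]
      simp only
      omega
  have h2 := card_le_card hsub
  rw [card_union_of_disjoint hd, hGc] at h2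
  have h3 := two_card_wpos c
  have h4 := good_le c hb hi
  have h5 := passes_le_good c
  have h6 := total_le_passes c
  omega

end Crest.Agent.R177.LevelsAux
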