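import Crest.Agent.R177.DefsPat

set_option autoImplicit false

namespace Crest.Agent.R177.LevelsAux

open Equiv Finset

/-! Generic counting lemmas -/

theorem sum_levels_le {X : Type} (S : Finset X) (g : X → ℕ) (μ : ℕ) (A : ℕ → Finset X)
    (hA : ∀ j, ∀ x ∈ A j, x ∈ S ∧ j ≤ g x) :
    ∑ j ∈ Icc 1 μ, (A j).card ≤ ∑ x ∈ S, g x := by
  classical
  calc ∑ j ∈ Icc 1 μ, (A j).card ≤ ∑ j ∈ Icc 1 μ, (S.filter (fun x => j ≤ g x)).card := by
        refine sum_le_sum fun j _ => card_le_card fun x hx => ?_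
        exact mem_filter.2 (hA j x hx)
    _ = ∑ j ∈ Icc 1 μ, ∑ x ∈ S, if j ≤ g x then 1 else 0 := by
        refine sum_congr rfl fun j _ => ?_
        rw [card_filter]
    _ = ∑ x ∈ S, ∑ j ∈ Icc 1 μ, if j ≤ g x then 1 else 0 := sum_comm
    _ ≤ ∑ x ∈ S, g x := by
        refine sum_le_sum fun x _ => ?_
        rw [← card_filter]
        calc ((Icc 1 μ).filter (fun j => j ≤ g x)).card ≤ (Icc 1 (g x)).card := by
              refine card_le_card fun j hj => ?_
              simp only [mem_filter, mem_Icc] at hj ⊢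
              omega
          _ = g x := by simp

theorem sum_levels_eq {X : Type} (S : Finset X) (g : X → ℕ) (μ : ℕ) (hg : ∀ x ∈ S, g x ≤ μ)
    (A : ℕ → Finset X) (hA : ∀ j x, x ∈ A j ↔ x ∈ S ∧ j ≤ g x) :
    ∑ j ∈ Icc 1 μ, (A j).card = ∑ x ∈ S, g x := by
  classical
  calc ∑ j ∈ Icc 1 μ, (A j).card = ∑ j ∈ Icc 1 μ, (S.filter (fun x => j ≤ g x)).card := by
        refine sum_congr rfl fun j _ => ?_
        congr 1
        ext x
        rw [hA, mem_filter]
    _ = ∑ j ∈ Icc 1 μ, ∑ x ∈ S, if j ≤ g x then 1 else 0 := by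
        refine sum_congr rfl fun j _ => ?_
        rw [card_filter]
    _ = ∑ x ∈ S, ∑ j ∈ Icc 1 μ, if j ≤ g x then 1 else 0 := sum_comm
    _ = ∑ x ∈ S, g x := by
        refine sum_congr rfl fun x hx => ?_
        rw [← card_filter]
        have : (Icc 1 μ).filter (fun j => j ≤ g x) = Icc 1 (g x) := by
          ext j
          have := hg x hx
          simp only [mem_filter, mem_Icc]
          omega
        rw [this]; simp

/-- a nonempty finite set of positions has a lexicographically least element -/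
theorem exists_lex_min {K : ℕ} (S : Finset (Fin K × ℕ)) (hS : S.Nonempty) :
    ∃ x ∈ S, ∀ y ∈ S, toLex x ≤ toLex y :=
  exists_min_image S (fun x => toLex x) hS

theorem card_darts {K : ℕ} (len : Fin K → ℕ) : (darts len).card = ∑ p, len p := by
  classical
  unfold darts
  rw [card_biUnion]
  · refine sum_congr rfl fun p _ => ?_
    rw [card_image_of_injective _ (fun a b h => (Prod.mk.inj h).2), card_range]
  · intro p _ q _ hpq
    simp only [Function.onFun]
    rw [disjoint_left]
    intro x hx hx'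
    simp only [mem_image, mem_range] at hx hx'
    obtain ⟨i, _, rfl⟩ := hx
    obtain ⟨j, _, h⟩ := hx'
    exact hpq (Prod.mk.inj h).1.symm

/-- sum of the fibre sizes over a set of values -/
theorem sum_fiber_le {X Y : Type} [DecidableEq Y] (S : Finset X) (f : X → Y) (A : Finset Y) :
    ∑ v ∈ A, (S.filter (fun x => f x = v)).card = (S.filter (fun x => f x ∈ A)).card := by
  rw [card_eq_sum_card_fiberwise (s := S.filter (fun x => f x ∈ A)) (t := A) (f := f)]
  · refine sum_congr rfl fun v hv => ?_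
    congr 1
    ext x
    simp only [mem_filter]
    constructor
    · rintro ⟨h1, h2⟩; exact ⟨⟨h1, h2 ▸ hv⟩, h2⟩
    · rintro ⟨⟨h1, _⟩, h2⟩; exact ⟨h1, h2⟩
  · intro x hx
    exact (mem_filter.1 hx).2

theorem o_succ {K : ℕ} (π : Pat K) (p : Fin K) (i : ℕ) : π.o (p, i + 1) = !π.o (p, i) := by
  simp only [Pat.o]
  rcases Nat.mod_two_eq_zero_or_one i with h | h
  · have : (i + 1) % 2 = 1 := by omega
    simp [h, this]
  · have : (i + 1) % 2 = 0 := by omega
    simp [h, this]

variable {V E T : Type} {Γ : LG V E T} {z : V} {K B L0 M : ℕ} (c : Config Γ z K B L0 M)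

theorem card_darts_total : (darts c.len).card = c.total := card_darts c.len

open Classical in
theorem mult_eq (hb : Γ.Bip) (hg : Γ.GirthGt 2) {x : Fin K × ℕ} (hx : x.2 < c.len x.1) :
    c.pat.mult x = ((darts c.len).filter (fun y => (c.ed y).1 = (c.ed x).1)).card := by
  unfold Pat.mult
  congr 1
  ext y
  simp only [mem_filter, Config.pat_len, mem_darts]
  constructor
  · rintro ⟨h1, h2⟩; exact ⟨h1, ((c.pat_sameE hb hg hx h1).1 h2).symm⟩
  · rintro ⟨h1, h2⟩; exact ⟨h1, (c.pat_sameE hb hg hx h1).2 h2.symm⟩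

/-- the walk `p` is closed -/
def Closed (p : Fin K) : Prop :=
  Γ.en (c.ed (p, c.len p - 1)) = Γ.st (c.ed (p, 0)) ∧ c.ed (p, 0) ≠ flp (c.ed (p, c.len p - 1))

open Classical in
/-- the visit positions -/
noncomputable def visits : Finset (Fin K × ℕ) :=
  (verts c.len).filter (fun x => x.2 < c.len x.1 ∨ ¬ Closed c x.1)

open Classical in
/-- number of visits of a vertex -/
noncomputable def vis (v : V) : ℕ := ((visits c).filter (fun x => c.vtx x = v)).card

open Classical in
/-- the visit position of the end of the dart `y` on side `b` -/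
noncomputable def endPos (b : Bool) (y : Fin K × ℕ) : Fin K × ℕ :=
  if (c.ed y).2 = b then y
  else if y.2 + 1 = c.len y.1 ∧ Closed c y.1 then (y.1, 0) else (y.1, y.2 + 1)

theorem endPos_mem (b : Bool) {y : Fin K × ℕ} (hy : y.2 < c.len y.1) :
    endPos c b y ∈ visits c := by
  unfold endPos visits
  split_ifs with h1 h2
  · simp only [mem_filter, mem_verts]; exact ⟨⟨by omega, hy.le⟩, Or.inl hy⟩
  · simp only [mem_filter, mem_verts]; exact ⟨⟨by omega, by omega⟩, Or.inl (by omega)⟩
  · simp only [mem_filter, mem_verts]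
    refine ⟨⟨by omega, by omega⟩, ?_⟩
    by_cases h : y.2 + 1 < c.len y.1
    · exact Or.inl h
    · exact Or.inr fun hc => h2 ⟨by omega, hc⟩

theorem vtx_endPos (b : Bool) {y : Fin K × ℕ} (hy : y.2 < c.len y.1) :
    c.vtx (endPos c b y) = Γ.st ((c.ed y).1, b) := by
  unfold endPos
  split_ifs with h1 h2
  · rw [c.vtx_st hy, ← h1]
  · have h0 : ((y.1, 0) : Fin K × ℕ).2 < c.len ((y.1, 0) : Fin K × ℕ).1 := by
      simp only; omega
    rw [c.vtx_st h0, ← h2.2.1]
    have : c.len y.1 - 1 = y.2 := by omega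
    rw [this]
    rcases h : c.ed y with ⟨e, b'⟩
    rw [h] at h1
    cases b <;> cases b' <;> simp_all [LG.st, LG.en]
  · rw [c.vtx_en hy]
    rcases h : c.ed y with ⟨e, b'⟩
    rw [h] at h1
    cases b <;> cases b' <;> simp_all [LG.st, LG.en]

theorem endPos_inj (b : Bool) {y y' : Fin K × ℕ} (hy : y.2 < c.len y.1) (hy' : y'.2 < c.len y'.1)
    (he : (c.ed y).1 = (c.ed y').1) (h : endPos c b y = endPos c b y') : y = y' := by
  -- a start and an end cannot coincide
  have key : ∀ {y y' : Fin K × ℕ}, y.2 < c.len y.1 → y'.2 < c.len y'.1 →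
      (c.ed y).1 = (c.ed y').1 → (c.ed y).2 = b → (c.ed y').2 ≠ b →
      endPos c b y = endPos c b y' → False := by
    intro y y' hy hy' he h1 h2 h
    have hflp : c.ed y = flp (c.ed y') := by
      refine Prod.ext he ?_
      simp only [flp]
      rw [h1]
      cases hb' : (c.ed y').2 <;> cases b <;> simp_all
    unfold endPos at h
    rw [if_pos h1, if_neg h2] at h
    split_ifs at h with h3
    · obtain ⟨h4, h5⟩ := h3
      apply h5.2
      have : c.len y'.1 - 1 = y'.2 := by omega
      rw [this, ← h]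
      exact hflp
    · have h4 : y'.2 + 1 < c.len y'.1 := by
        rw [h] at hy; exact hy
      apply c.nb y'.1 y'.2 h4
      rw [← h]
      exact hflp
  by_cases h1 : (c.ed y).2 = b <;> by_cases h2 : (c.ed y').2 = b
  · unfold endPos at h
    rwa [if_pos h1, if_pos h2] at h
  · exact (key hy hy' he h1 h2 h).elim
  · exact (key hy' hy he.symm h2 h1 h.symm).elim
  · unfold endPos at h
    rw [if_neg h1, if_neg h2] at h
    rcases y with ⟨p, i⟩
    rcases y' with ⟨p', i'⟩
    split_ifs at h with h3 h4 h4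
    · obtain rfl : p = p' := (Prod.mk.inj h).1
      simp only at h3 h4
      have : i = i' := by omega
      rw [this]
    · simp at h
    · simp at h
    · simp only [Prod.mk.injEq] at h
      obtain ⟨rfl, h⟩ := h
      have : i = i' := by omega
      rw [this]

theorem mult_le_vis (hb : Γ.Bip) (hg : Γ.GirthGt 2) (b : Bool) {x : Fin K × ℕ}
    (hx : x.2 < c.len x.1) : c.pat.mult x ≤ vis c (Γ.st ((c.ed x).1, b)) := by
  classical
  rw [mult_eq c hb hg hx]
  unfold vis
  refine card_le_card_of_injOn (endPos c b) ?_ ?_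
  · intro y hy
    simp only [coe_filter, mem_darts, Set.mem_ofPred_eq] at hy ⊢
    refine ⟨endPos_mem c b hy.1, ?_⟩
    rw [vtx_endPos c b hy.1, hy.2]
  · intro y hy y' hy' h
    simp only [coe_filter, mem_darts, Set.mem_ofPred_eq] at hy hy'
    exact endPos_inj c b hy.1 hy'.1 (hy.2.trans hy'.2.symm) h

theorem mW_le_vis (hb : Γ.Bip) (hg : Γ.GirthGt 2) {x : Fin K × ℕ}
    (hx : x.2 < c.len x.1) : c.pat.mW x ≤ vis c (Γ.tgt (c.ed x).1) := by
  classical
  unfold Pat.mW
  refine Finset.sup_le fun y hy => ?_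
  simp only [mem_filter, Config.pat_len, mem_darts] at hy
  have h := mult_le_vis c hb hg false hy.1
  have h2 := (c.pat_sameW hb hx hy.1).1 hy.2
  rw [h2]
  exact h

end Crest.Agent.R177.LevelsAux
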