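import Crest.Agent.R177.Levels.Basic

set_option autoImplicit false

namespace Crest.Agent.R177.LevelsAux

open Equiv Finset

variable {V E T : Type} {Γ : LG V E T} {z : V} {K B L0 M : ℕ} (c : Config Γ z K B L0 M)

theorem levels_E' (hb : Γ.Bip) (hg : Γ.GirthGt 2) {μ : ℕ}
    (hμ : ∀ x ∈ darts c.len, c.pat.mult x ≤ μ) :
    ∑ j ∈ Finset.Icc 1 μ, c.pat.nE j = c.total := by
  classical
  set R := (darts c.len).filter (fun x => c.pat.repE x) with hR
  have h1 : ∑ j ∈ Finset.Icc 1 μ, c.pat.nE j = ∑ x ∈ R, c.pat.mult x := by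
    unfold Pat.nE
    refine sum_levels_eq R c.pat.mult μ (fun x hx => hμ x (mem_filter.1 hx).1) _ ?_
    intro j x
    simp only [hR, Pat.J, mem_filter, Config.pat_len]
    tauto
  have hinj : Set.InjOn (fun x => (c.ed x).1) (R : Set (Fin K × ℕ)) := by
    intro x hx y hy h
    simp only [hR, coe_filter, Set.mem_ofPred_eq] at hx hy
    have hx1 := (mem_darts _ _).1 hx.1
    have hy1 := (mem_darts _ _).1 hy.1
    have a1 := hx.2 y hy.1 ((c.pat_sameE hb hg hx1 hy1).2 h)
    have a2 := hy.2 x hx.1 ((c.pat_sameE hb hg hy1 hx1).2 h.symm)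
    exact toLex.injective (le_antisymm a1 a2)
  have himg : R.image (fun x => (c.ed x).1) = (darts c.len).image (fun x => (c.ed x).1) := by
    apply Subset.antisymm (image_subset_image (filter_subset _ _))
    intro e he
    obtain ⟨y, hy, rfl⟩ := mem_image.1 he
    obtain ⟨x, hx, hmin⟩ := exists_lex_min
      ((darts c.len).filter (fun x => (c.ed x).1 = (c.ed y).1)) ⟨y, mem_filter.2 ⟨hy, rfl⟩⟩
    obtain ⟨hx1, hx2⟩ := mem_filter.1 hx
    refine mem_image.2 ⟨x, mem_filter.2 ⟨hx1, ?_⟩, hx2⟩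
    intro y' hy' hs
    refine hmin y' (mem_filter.2 ⟨hy', ?_⟩)
    have := (c.pat_sameE hb hg ((mem_darts _ _).1 hx1) ((mem_darts _ _).1 hy')).1 hs
    rw [← this, hx2]
  rw [h1, ← card_darts_total, card_eq_sum_card_image (fun x => (c.ed x).1) (darts c.len), ← himg,
    sum_image hinj]
  refine sum_congr rfl fun x hx => ?_
  rw [mult_eq c hb hg ((mem_darts _ _).1 (mem_filter.1 hx).1)]

open Classical in
/-- level sum for the `U` vertices -/
theorem sum_nU_le (hb : Γ.Bip) (hg : Γ.GirthGt 2) (μ : ℕ) :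
    ∑ j ∈ Finset.Icc 1 μ, c.pat.nU j ≤
      ∑ v ∈ ((darts c.len).image (fun x => Γ.src (c.ed x).1)).erase z, vis c v := by
  have h : ∀ j, c.pat.nU j = (((c.pat.J j).filter
      (fun x => c.pat.repU j x ∧ c.pat.uPos x ∉ c.pat.Z)).image
        (fun x => Γ.src (c.ed x).1)).card := by
    intro j
    unfold Pat.nU
    rw [card_image_of_injOn]
    intro x hx y hy h
    simp only [coe_filter, Set.mem_ofPred_eq] at hx hy
    have hx1 := (mem_darts _ _).1 (mem_filter.1 hx.1).1
    have hy1 := (mem_darts _ _).1 (mem_filter.1 hy.1).1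
    have a1 := hx.2.1 y hy.1 ((c.pat_sameU hb hx1 hy1).2 h)
    have a2 := hy.2.1 x hx.1 ((c.pat_sameU hb hy1 hx1).2 h.symm)
    exact toLex.injective (le_antisymm a1 a2)
  simp only [h]
  refine sum_levels_le _ (vis c) μ _ ?_
  intro j v hv
  obtain ⟨x, hx, rfl⟩ := mem_image.1 hv
  obtain ⟨hx1, _, hx3⟩ := mem_filter.1 hx
  obtain ⟨hx4, hx5⟩ := mem_filter.1 hx1
  have hx6 := (mem_darts _ _).1 hx4
  refine ⟨mem_erase.2 ⟨?_, mem_image.2 ⟨x, hx4, rfl⟩⟩, ?_⟩
  · exact fun h => hx3 ((c.pat_uPos_mem_Z hb hx6).2 h)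
  · exact hx5.trans (mult_le_vis c hb hg true hx6)

open Classical in
/-- level sum for a set of connectors given by first darts -/
theorem sum_W_le (hb : Γ.Bip) (hg : Γ.GirthGt 2) (μ : ℕ) (P : Fin K × ℕ → Prop) :
    ∑ j ∈ Finset.Icc 1 μ,
      ((darts c.len).filter (fun x => c.pat.repW x ∧ j ≤ c.pat.mW x ∧ P x)).card ≤
      ∑ v ∈ ((darts c.len).filter P).image (fun x => Γ.tgt (c.ed x).1), vis c v := by
  have h : ∀ j, ((darts c.len).filter (fun x => c.pat.repW x ∧ j ≤ c.pat.mW x ∧ P x)).card =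
      (((darts c.len).filter (fun x => c.pat.repW x ∧ j ≤ c.pat.mW x ∧ P x)).image
        (fun x => Γ.tgt (c.ed x).1)).card := by
    intro j
    rw [card_image_of_injOn]
    intro x hx y hy h
    simp only [coe_filter, Set.mem_ofPred_eq] at hx hy
    have hx1 := (mem_darts _ _).1 hx.1
    have hy1 := (mem_darts _ _).1 hy.1
    have a1 := hx.2.1 y hy.1 ((c.pat_sameW hb hx1 hy1).2 h)
    have a2 := hy.2.1 x hx.1 ((c.pat_sameW hb hy1 hx1).2 h.symm)
    exact toLex.injective (le_antisymm a1 a2)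
  simp only [h]
  refine sum_levels_le _ (vis c) μ _ ?_
  intro j v hv
  obtain ⟨x, hx, rfl⟩ := mem_image.1 hv
  obtain ⟨hx1, _, hx3, hx4⟩ := mem_filter.1 hx
  have hx6 := (mem_darts _ _).1 hx1
  exact ⟨mem_image.2 ⟨x, mem_filter.2 ⟨hx1, hx4⟩, rfl⟩, hx3.trans (mW_le_vis c hb hg hx6)⟩

open Classical in
theorem sum_nW_le (hb : Γ.Bip) (hg : Γ.GirthGt 2) (μ : ℕ) :
    ∑ j ∈ Finset.Icc 1 μ, c.pat.nW j ≤
      ∑ v ∈ (darts c.len).image (fun x => Γ.tgt (c.ed x).1), vis c v := by
  have h := sum_W_le c hb hg μ (fun _ => True)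
  simp only [and_true, filter_true] at h
  exact h

open Classical in
theorem sum_vis (A : Finset V) :
    ∑ v ∈ A, vis c v = ((visits c).filter (fun x => c.vtx x ∈ A)).card := by
  unfold vis
  convert sum_fiber_le (visits c) c.vtx A

open Classical in
theorem card_visits_ne :
    ((visits c).filter (fun x => c.vtx x ≠ z)).card ≤
      c.total + (univ.filter (fun p => M ≤ c.len p)).card := by
  set D1 := (darts c.len).filter (fun x => c.vtx x ≠ z)
  set D2 := (darts c.len).filter (fun x => ¬ c.vtx x ≠ z)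
  set Nz := univ.filter (fun p => 0 < c.len p ∧ Γ.st (c.ed (p, 0)) = z)
  set Lg := univ.filter (fun p => M ≤ c.len p)
  have h1 : D1.card + D2.card = c.total := by
    rw [← card_darts_total]; exact card_filter_add_card_filter_not _
  have h2 : Nz.card ≤ D2.card := by
    refine card_le_card_of_injOn (fun p => (p, 0)) ?_ ?_
    · intro p hp
      simp only [Nz, D2, coe_filter, mem_univ, true_and, Set.mem_ofPred_eq, mem_darts] at hp ⊢
      refine ⟨hp.1, ?_⟩
      rw [c.vtx_st (x := (p, 0)) hp.1]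
      exact fun h => h hp.2
    · intro p _ q _ h
      exact (Prod.mk.inj h).1
  have h3 : (visits c).filter (fun x => c.vtx x ≠ z) ⊆
      D1 ∪ (Nz ∪ Lg).image (fun p => (p, c.len p)) := by
    intro x hx
    obtain ⟨hx1, hx2⟩ := mem_filter.1 hx
    unfold visits at hx1
    obtain ⟨hx3, hx4⟩ := mem_filter.1 hx1
    rw [mem_verts] at hx3
    by_cases h : x.2 < c.len x.1
    · exact mem_union_left _ (mem_filter.2 ⟨(mem_darts _ _).2 h, hx2⟩)
    · refine mem_union_right _ (mem_image.2 ⟨x.1, ?_, ?_⟩)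
      · rcases c.kind x.1 hx3.1 with hk | hk | hk
        · exact absurd hk (hx4.resolve_left h)
        · exact mem_union_right _ (mem_filter.2 ⟨mem_univ _, hk⟩)
        · exact mem_union_left _ (mem_filter.2 ⟨mem_univ _, hx3.1, hk⟩)
      · refine Prod.ext rfl ?_
        simp only
        omega
  have h4 := card_le_card h3
  have h5 := card_union_le D1 ((Nz ∪ Lg).image (fun p => (p, c.len p)))
  have h6 := card_image_le (s := Nz ∪ Lg) (f := fun p => (p, c.len p))
  have h7 := card_union_le Nz Lg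
  omega

theorem levels_V' (hb : Γ.Bip) (hg : Γ.GirthGt 2) (hz : ∀ e, Γ.tgt e ≠ z) (μ : ℕ) :
    ∃ a : ℕ, a * M ≤ c.total ∧
      ∑ j ∈ Finset.Icc 1 μ, (c.pat.nU j + c.pat.nW j) ≤ c.total + a := by
  classical
  refine ⟨(univ.filter (fun p => M ≤ c.len p)).card, ?_, ?_⟩
  · unfold Config.total
    calc (univ.filter (fun p => M ≤ c.len p)).card * M
        = ∑ _p ∈ univ.filter (fun p => M ≤ c.len p), M := by simp
      _ ≤ ∑ p ∈ univ.filter (fun p => M ≤ c.len p), c.len p :=
          sum_le_sum fun p hp => (mem_filter.1 hp).2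
      _ ≤ ∑ p, c.len p := sum_le_sum_of_subset (filter_subset _ _)
  · rw [sum_add_distrib]
    have h1 := sum_nU_le c hb hg μ
    have h2 := sum_nW_le c hb hg μ
    have h3 := card_visits_ne c
    have hd : Disjoint (((darts c.len).image (fun x => Γ.src (c.ed x).1)).erase z)
        ((darts c.len).image (fun x => Γ.tgt (c.ed x).1)) := by
      rw [disjoint_left]
      intro v hv hv'
      obtain ⟨x, _, rfl⟩ := mem_image.1 (mem_erase.1 hv).2
      obtain ⟨y, _, h⟩ := mem_image.1 hv'
      exact hb _ _ h.symm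
    have h4 := sum_union (f := vis c) hd
    rw [sum_vis] at h4
    have h5 : ((visits c).filter (fun x => c.vtx x ∈
        ((darts c.len).image (fun x => Γ.src (c.ed x).1)).erase z ∪
          (darts c.len).image (fun x => Γ.tgt (c.ed x).1))).card ≤
        ((visits c).filter (fun x => c.vtx x ≠ z)).card := by
      refine card_le_card fun x hx => ?_
      obtain ⟨hx1, hx2⟩ := mem_filter.1 hx
      refine mem_filter.2 ⟨hx1, ?_⟩
      rcases mem_union.1 hx2 with h | h
      · exact (mem_erase.1 h).1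
      · obtain ⟨y, _, h⟩ := mem_image.1 h
        rw [← h]; exact hz _
    omega

open Classical in
/-- the `W` positions -/
noncomputable def wpos : Finset (Fin K × ℕ) :=
  (verts c.len).filter (fun x => c.pat.o x = false)

theorem mem_wpos_of (hb : Γ.Bip) {x : Fin K × ℕ} (hx : x ∈ verts c.len) {e : E}
    (he : c.vtx x = Γ.tgt e) : x ∈ wpos c := by
  unfold wpos
  refine mem_filter.2 ⟨hx, ?_⟩
  rw [mem_verts] at hx
  by_cases h : x.2 < c.len x.1
  · rw [c.pat_o hb h]
    rw [c.vtx_st h] at he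
    by_contra h2
    have h3 : (c.ed x).2 = true := by simpa using h2
    simp only [LG.st, h3, cond_true] at he
    exact hb _ _ he
  · rcases x with ⟨p, i⟩
    simp only at hx h
    obtain ⟨k, rfl⟩ : ∃ k, i = k + 1 := ⟨i - 1, by omega⟩
    have hk : ((p, k) : Fin K × ℕ).2 < c.len ((p, k) : Fin K × ℕ).1 := by simp only; omega
    rw [o_succ, c.pat_o hb hk]
    have := c.vtx_en hk
    simp only at this
    rw [this] at he
    by_contra h2
    have h3 : (c.ed (p, k)).2 = false := by simpa using h2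
    simp only [LG.en, h3, cond_false] at he
    exact hb _ _ he

theorem two_card_wpos : 2 * (wpos c).card ≤ c.total + 2 * K := by
  classical
  set D1 := (darts c.len).filter (fun x => c.pat.o x = false)
  set D2 := (darts c.len).filter (fun x => ¬ c.pat.o x = false)
  have h1 : D1.card + D2.card = c.total := by
    rw [← card_darts_total]; exact card_filter_add_card_filter_not _
  have h2 : wpos c ⊆ D1 ∪ univ.image (fun p => (p, c.len p)) := by
    intro x hx
    obtain ⟨hx1, hx2⟩ := mem_filter.1 hx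
    rw [mem_verts] at hx1
    by_cases h : x.2 < c.len x.1
    · exact mem_union_left _ (mem_filter.2 ⟨(mem_darts _ _).2 h, hx2⟩)
    · refine mem_union_right _ (mem_image.2 ⟨x.1, mem_univ _, Prod.ext rfl ?_⟩)
      simp only; omega
  have h3 : wpos c ⊆ D2.image (fun x => (x.1, x.2 + 1)) ∪ univ.image (fun p => (p, 0)) := by
    rintro ⟨p, i⟩ hx
    obtain ⟨hx1, hx2⟩ := mem_filter.1 hx
    rw [mem_verts] at hx1
    rcases i with _ | k
    · exact mem_union_right _ (mem_image.2 ⟨p, mem_univ _, rfl⟩)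
    · refine mem_union_left _ (mem_image.2 ⟨(p, k), mem_filter.2 ⟨(mem_darts _ _).2 ?_, ?_⟩, rfl⟩)
      · simp only at hx1 ⊢; omega
      · rw [o_succ] at hx2
        simpa using hx2
  have h4 := (card_le_card h2).trans (card_union_le _ _)
  have h5 := (card_le_card h3).trans (card_union_le _ _)
  have h6 : (univ.image (fun p => (p, c.len p))).card ≤ K :=
    card_image_le.trans (by simp)
  have h7 : (univ.image (fun p : Fin K => (p, 0))).card ≤ K :=
    card_image_le.trans (by simp)
  have h8 : (D2.image (fun x => (x.1, x.2 + 1))).card ≤ D2.card := card_image_le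
  omega

theorem visits_subset : visits c ⊆ verts c.len := by
  classical
  unfold visits
  exact filter_subset _ _

theorem levels_W' (hb : Γ.Bip) (hg : Γ.GirthGt 2) (μ : ℕ) :
    2 * ∑ j ∈ Finset.Icc 1 μ, c.pat.nW j ≤ c.total + 2 * K := by
  classical
  have h1 := sum_nW_le c hb hg μ
  rw [sum_vis] at h1
  have h2 := two_card_wpos c
  refine le_trans (Nat.mul_le_mul_left 2 (h1.trans (card_le_card ?_))) h2
  intro x hx
  obtain ⟨hx1, hx2⟩ := mem_filter.1 hx
  obtain ⟨y, _, h⟩ := mem_image.1 hx2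
  exact mem_wpos_of c hb (visits_subset c hx1) h.symm

end Crest.Agent.R177.LevelsAux
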